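import Crest.Agent.Helper59.OT.Rho

/-!
# Row 82 (S0109) — package Cb: basic facts on Laguerre cells, the max-affine potential and
merged masses.

All statements are verbatim those of `Crest.Agent.Helper75.OT.Spec` (same names, namespace
`Crest.Agent.Helper75.OT`).  Auxiliary lemmas live in `Crest.Agent.Helper46.OT`.
Depends only on `Defs` and on helper59's `Rho` (`rho_prob`, `rho_compl`, `rho_ac`).
-/

set_option autoImplicit false

noncomputable section

open MeasureTheory Filter Topology
open scoped ENNReal NNReal RealInnerProductSpace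

namespace Crest.Agent.Helper46.OT

open Crest.AnalysisR.OT Crest.Agent.Helper75.OT

variable {d : ℕ}

/-! ### Unfolding lemmas proved by `rfl` (so that no auto equation lemma of a `Defs`/Prelude
definition is realised in this module). -/

theorem mem_Lag_iff {K : Set (E d)} {S : Finset (E d)} {w : E d → ℝ} {c x : E d} :
    x ∈ Lag K S w c ↔ x ∈ K ∧ ∀ c' ∈ S, ⟪x, c'⟫ - w c' ≤ ⟪x, c⟫ - w c := Iff.rfl

theorem gM_def (K : Set (E d)) (S : Finset (E d)) (w : E d → ℝ) (c : E d) :
    gM K S w c = ((uniformProbOn K) (Lag K S w c)).toReal := rfl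

theorem lagPot_def (S : Finset (E d)) (w : E d → ℝ) (x : E d) :
    lagPot S w x = if h : S.Nonempty then S.sup' h (fun c => ⟪x, c⟫ - w c) else 0 := rfl

theorem lagPot_of_nonempty {S : Finset (E d)} (hS : S.Nonempty) (w : E d → ℝ) (x : E d) :
    lagPot S w x = S.sup' hS (fun c => ⟪x, c⟫ - w c) := by
  rw [lagPot_def, dif_pos hS]

theorem lagPot_of_not_nonempty {S : Finset (E d)} (hS : ¬ S.Nonempty) (w : E d → ℝ) (x : E d) :
    lagPot S w x = 0 := by
  rw [lagPot_def, dif_neg hS]

open Classical in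
theorem mergedMass_def {ι : Type} [Fintype ι] (y : ι → E d) (m : ι → ℝ) (c : E d) :
    mergedMass y m c = ∑ i, if y i = c then m i else 0 := rfl

theorem mem_supp_iff {ι : Type} [Fintype ι] (y : ι → E d) (c : E d) :
    c ∈ supp y ↔ ∃ i, y i = c := by
  have h : c ∈ supp y ↔ c ∈ Finset.univ.image y := Iff.rfl
  rw [h, Finset.mem_image]
  simp only [Finset.mem_univ, true_and]

/-- Affine hyperplanes are Lebesgue-null. -/
theorem vol_hyperplane (a : E d) (ha : a ≠ 0) (t : ℝ) :
    (volume : Measure (E d)) {x | ⟪x, a⟫ = t} = 0 := by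
  set x₀ : E d := (t / ⟪a, a⟫) • a with hx₀
  have haa : ⟪a, a⟫ ≠ 0 := fun h => ha (inner_self_eq_zero.mp h)
  have hx₀a : ⟪x₀, a⟫ = t := by
    rw [hx₀, real_inner_smul_left]
    field_simp
  set V : Submodule ℝ (E d) := LinearMap.ker ((innerSL ℝ a : E d →L[ℝ] ℝ) : E d →ₗ[ℝ] ℝ) with hV
  have hVtop : V ≠ ⊤ := by
    intro h
    have : a ∈ V := by rw [h]; exact Submodule.mem_top
    rw [hV, LinearMap.mem_ker] at this
    exact haa (by simpa using this)
  have hset : {x : E d | ⟪x, a⟫ = t} = (fun x => x + (-x₀)) ⁻¹' (V : Set (E d)) := by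
    ext x
    simp only [Set.mem_ofPred_eq, Set.mem_preimage, SetLike.mem_coe, hV, LinearMap.mem_ker,
      ContinuousLinearMap.coe_coe, innerSL_apply_apply]
    rw [inner_add_right, inner_neg_right, real_inner_comm a x, real_inner_comm x₀ a, hx₀a]
    constructor
    · intro h; linarith
    · intro h; linarith
  rw [hset, measure_preimage_add_right]
  exact Measure.addHaar_submodule volume V hVtop

/-- Affine hyperplanes are null for the source measure. -/
theorem rho_hyperplane_aux {K : Set (E d)} (a : E d) (ha : a ≠ 0) (t : ℝ) :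
    (uniformProbOn K) {x | ⟪x, a⟫ = t} = 0 :=
  rho_ac K (vol_hyperplane a ha t)

/-- The source measure lives on `K`. -/
theorem rho_restrict_self {K : Set (E d)} (hK : Body K) :
    (uniformProbOn K).restrict K = uniformProbOn K := by
  apply Measure.restrict_eq_self_of_ae_mem
  rw [ae_iff]
  exact rho_compl hK

theorem rho_K {K : Set (E d)} (hK : Body K) : (uniformProbOn K) K = 1 := by
  have := rho_prob hK
  exact (prob_compl_eq_zero_iff hK.compact.isClosed.measurableSet).mp (rho_compl hK)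

/-- A cell is the intersection of `K` with finitely many closed half-spaces. -/
theorem Lag_eq_inter (K : Set (E d)) (S : Finset (E d)) (w : E d → ℝ) (c : E d) :
    Lag K S w c = K ∩ ⋂ c' ∈ S, {x | ⟪x, c'⟫ - w c' ≤ ⟪x, c⟫ - w c} := by
  ext x
  rw [mem_Lag_iff]
  simp only [Set.mem_ofPred_eq, Set.mem_inter_iff, Set.mem_iInter]

end Crest.Agent.Helper46.OT

namespace Crest.Agent.Helper75.OT

open Crest.AnalysisR.OT Crest.Agent.Helper46.OT

variable {d : ℕ}

theorem Lag_subset (K : Set (E d)) (S : Finset (E d)) (w : E d → ℝ) (c : E d) :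
    Lag K S w c ⊆ K := fun _ hx => hx.1

theorem isClosed_Lag {K : Set (E d)} (hK : Body K) (S : Finset (E d)) (w : E d → ℝ) (c : E d) :
    IsClosed (Lag K S w c) := by
  rw [Lag_eq_inter]
  refine hK.compact.isClosed.inter (isClosed_biInter fun c' _ => ?_)
  exact isClosed_le (by fun_prop) (by fun_prop)

theorem measurableSet_Lag {K : Set (E d)} (hK : Body K) (S : Finset (E d)) (w : E d → ℝ)
    (c : E d) : MeasurableSet (Lag K S w c) :=
  (isClosed_Lag hK S w c).measurableSet

theorem convex_Lag {K : Set (E d)} (hK : Body K) (S : Finset (E d)) (w : E d → ℝ) (c : E d) :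
    Convex ℝ (Lag K S w c) := by
  intro x hx y hy a b ha hb hab
  refine ⟨hK.convex hx.1 hy.1 ha hb hab, fun c' hc' => ?_⟩
  have h1 := mul_le_mul_of_nonneg_left (hx.2 c' hc') ha
  have h2 := mul_le_mul_of_nonneg_left (hy.2 c' hc') hb
  have e1 : ⟪a • x + b • y, c'⟫ - w c'
      = a * (⟪x, c'⟫ - w c') + b * (⟪y, c'⟫ - w c') := by
    rw [inner_add_left, real_inner_smul_left, real_inner_smul_left]
    linear_combination (w c') * hab
  have e2 : ⟪a • x + b • y, c⟫ - w c
      = a * (⟪x, c⟫ - w c) + b * (⟪y, c⟫ - w c) := by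
    rw [inner_add_left, real_inner_smul_left, real_inner_smul_left]
    linear_combination (w c) * hab
  rw [e1, e2]
  linarith

/-- Midpoints of cells lie in the cell of the averaged weights. -/
theorem Lag_midpoint {K : Set (E d)} (hK : Body K) (S : Finset (E d)) (w0 w1 : E d → ℝ) (c : E d)
    {x y : E d} (hx : x ∈ Lag K S w0 c) (hy : y ∈ Lag K S w1 c) :
    (1 / 2 : ℝ) • (x + y) ∈ Lag K S (fun a => (w0 a + w1 a) / 2) c := by
  refine ⟨?_, fun c' hc' => ?_⟩
  · have := hK.convex hx.1 hy.1 (by norm_num : (0 : ℝ) ≤ 1 / 2) (by norm_num : (0 : ℝ) ≤ 1 / 2)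
      (by norm_num)
    rwa [← smul_add] at this
  · have h1 := hx.2 c' hc'
    have h2 := hy.2 c' hc'
    simp only [real_inner_smul_left, inner_add_left]
    linarith

/-- Cells of distinct atoms overlap in a null set. -/
theorem Lag_inter_null {K : Set (E d)} (S : Finset (E d)) (w : E d → ℝ) {c c' : E d}
    (hc : c ∈ S) (hc' : c' ∈ S) (hne : c ≠ c') :
    (uniformProbOn K) (Lag K S w c ∩ Lag K S w c') = 0 := by
  refine measure_mono_null ?_
    (rho_hyperplane_aux (K := K) (c - c') (sub_ne_zero.mpr hne) (w c - w c'))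
  rintro x ⟨hx, hx'⟩
  have h1 := hx.2 c' hc'
  have h2 := hx'.2 c hc
  simp only [Set.mem_ofPred_eq, inner_sub_right]
  linarith

/-- The cells cover `K`. -/
theorem iUnion_Lag (K : Set (E d)) (S : Finset (E d)) (hS : S.Nonempty) (w : E d → ℝ) :
    (⋃ c ∈ S, Lag K S w c) = K := by
  apply Set.Subset.antisymm
  · exact Set.iUnion₂_subset fun c _ => Lag_subset K S w c
  · intro x hx
    obtain ⟨c, hc, hmax⟩ := Finset.exists_max_image S (fun c => ⟪x, c⟫ - w c) hS
    exact Set.mem_biUnion hc ⟨hx, hmax⟩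

/-- Integrals split over the cells. -/
theorem sum_integral_Lag {K : Set (E d)} (hK : Body K) (S : Finset (E d)) (hS : S.Nonempty)
    (w : E d → ℝ) {F : Type} [NormedAddCommGroup F] [NormedSpace ℝ F] (f : E d → F)
    (hf : Integrable f (uniformProbOn K)) :
    ∑ c ∈ S, ∫ x in Lag K S w c, f x ∂(uniformProbOn K) = ∫ x, f x ∂(uniformProbOn K) := by
  have hU : (⋃ c : S, Lag K S w (c : E d)) = K := by
    apply Set.Subset.antisymm
    · exact Set.iUnion_subset fun c => Lag_subset K S w c
    · intro x hx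
      obtain ⟨c, hc, hmax⟩ := Finset.exists_max_image S (fun c => ⟪x, c⟫ - w c) hS
      exact Set.mem_iUnion.mpr ⟨⟨c, hc⟩, hx, hmax⟩
  have key := integral_iUnion_ae (μ := uniformProbOn K) (f := f)
    (s := fun c : S => Lag K S w (c : E d))
    (fun c => (measurableSet_Lag hK S w c).nullMeasurableSet)
    (fun c c' hcc' => Lag_inter_null S w c.2 c'.2 (fun h => hcc' (Subtype.ext h)))
    hf.integrableOn
  rw [tsum_fintype, hU, rho_restrict_self hK] at key
  rw [key]
  exact (Finset.sum_coe_sort S (fun c => ∫ x in Lag K S w c, f x ∂(uniformProbOn K))).symm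

theorem sum_gM {K : Set (E d)} (hK : Body K) (S : Finset (E d)) (hS : S.Nonempty)
    (w : E d → ℝ) : ∑ c ∈ S, gM K S w c = 1 := by
  have := rho_prob hK
  have h1 : (uniformProbOn K) (⋃ c ∈ S, Lag K S w c) = ∑ c ∈ S, (uniformProbOn K) (Lag K S w c) :=
    measure_biUnion_finset₀
      (fun c hc c' hc' hcc' => Lag_inter_null S w hc hc' hcc')
      (fun c _ => (measurableSet_Lag hK S w c).nullMeasurableSet)
  rw [iUnion_Lag K S hS w, rho_K hK] at h1
  simp only [gM_def]
  rw [← ENNReal.toReal_sum (fun c _ => measure_ne_top _ _), ← h1, ENNReal.toReal_one]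

theorem gM_nonneg (K : Set (E d)) (S : Finset (E d)) (w : E d → ℝ) (c : E d) :
    0 ≤ gM K S w c := ENNReal.toReal_nonneg

theorem norm_mM_le {K : Set (E d)} (hK : Body K) {R : ℝ} (hR : ∀ x ∈ K, ‖x‖ ≤ R)
    (S : Finset (E d)) (w : E d → ℝ) (c : E d) : ‖mM K S w c‖ ≤ R * gM K S w c := by
  have := rho_prob hK
  exact norm_setIntegral_le_of_norm_le_const (measure_lt_top _ _)
    (fun x hx => hR x hx.1)

theorem qM_nonneg (K : Set (E d)) (S : Finset (E d)) (w : E d → ℝ) (c : E d) :
    0 ≤ qM K S w c :=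
  integral_nonneg fun _ => by positivity

theorem qM_le {K : Set (E d)} (hK : Body K) {R : ℝ} (hR : ∀ x ∈ K, ‖x‖ ≤ R)
    (S : Finset (E d)) (w : E d → ℝ) (c : E d) : qM K S w c ≤ R ^ 2 * gM K S w c := by
  have := rho_prob hK
  have h := norm_setIntegral_le_of_norm_le_const (μ := uniformProbOn K) (s := Lag K S w c)
    (f := fun x : E d => ‖x‖ ^ 2) (C := R ^ 2) (measure_lt_top _ _)
    (fun x hx => by
      rw [Real.norm_eq_abs, abs_of_nonneg (by positivity)]
      exact pow_le_pow_left₀ (norm_nonneg x) (hR x hx.1) 2)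
  exact (le_abs_self _).trans h

/-- The potential is the active affine function on each cell, and dominates all of them. -/
theorem lagPot_eq_of_mem {K : Set (E d)} {S : Finset (E d)} {w : E d → ℝ} {c x : E d}
    (hc : c ∈ S) (hx : x ∈ Lag K S w c) : lagPot S w x = ⟪x, c⟫ - w c := by
  rw [lagPot_of_nonempty ⟨c, hc⟩]
  exact le_antisymm (Finset.sup'_le _ _ fun c' hc' => hx.2 c' hc')
    (Finset.le_sup' (fun c => ⟪x, c⟫ - w c) hc)

theorem le_lagPot {S : Finset (E d)} (w : E d → ℝ) {c : E d} (hc : c ∈ S) (x : E d) :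
    ⟪x, c⟫ - w c ≤ lagPot S w x := by
  rw [lagPot_of_nonempty ⟨c, hc⟩]
  exact Finset.le_sup' (fun c => ⟪x, c⟫ - w c) hc

theorem convexOn_lagPot (S : Finset (E d)) (w : E d → ℝ) : ConvexOn ℝ Set.univ (lagPot S w) := by
  refine ⟨convex_univ, fun x _ y _ a b ha hb hab => ?_⟩
  by_cases hS : S.Nonempty
  · have hle : ∀ c ∈ S, ⟪a • x + b • y, c⟫ - w c ≤ a • lagPot S w x + b • lagPot S w y := by
      intro c hc
      have h1 := mul_le_mul_of_nonneg_left (le_lagPot w hc x) ha
      have h2 := mul_le_mul_of_nonneg_left (le_lagPot w hc y) hb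
      have e1 : ⟪a • x + b • y, c⟫ - w c
          = a * (⟪x, c⟫ - w c) + b * (⟪y, c⟫ - w c) := by
        rw [inner_add_left, real_inner_smul_left, real_inner_smul_left]
        linear_combination (w c) * hab
      rw [e1, smul_eq_mul, smul_eq_mul]
      linarith
    rw [lagPot_of_nonempty hS]
    exact Finset.sup'_le _ _ hle
  · rw [lagPot_of_not_nonempty hS, lagPot_of_not_nonempty hS, lagPot_of_not_nonempty hS]
    simp

theorem lipschitz_lagPot {S : Finset (E d)} (w : E d → ℝ) {R : ℝ≥0} (hS : ∀ c ∈ S, ‖c‖ ≤ R) :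
    LipschitzWith R (lagPot S w) := by
  apply LipschitzWith.of_le_add_mul
  intro x y
  by_cases hne : S.Nonempty
  · rw [lagPot_of_nonempty hne]
    refine Finset.sup'_le _ _ fun c hc => ?_
    have h1 := le_lagPot w hc y
    have h2 : ⟪x - y, c⟫ ≤ (R : ℝ) * dist x y := by
      calc ⟪x - y, c⟫ ≤ ‖x - y‖ * ‖c‖ := real_inner_le_norm _ _
        _ ≤ ‖x - y‖ * R := mul_le_mul_of_nonneg_left (hS c hc) (norm_nonneg _)
        _ = (R : ℝ) * dist x y := by rw [dist_eq_norm, mul_comm]
    have e : ⟪x, c⟫ = ⟪y, c⟫ + ⟪x - y, c⟫ := by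
      rw [inner_sub_left]; ring
    linarith
  · rw [lagPot_of_not_nonempty hne, lagPot_of_not_nonempty hne]
    have : (0 : ℝ) ≤ (R : ℝ) * dist x y := mul_nonneg R.coe_nonneg dist_nonneg
    linarith

/-- Merged masses: positivity on the support and total mass. -/
theorem mergedMass_pos {ι : Type} [Fintype ι] (y : ι → E d) (m : ι → ℝ) (hm : ∀ i, 0 < m i)
    {c : E d} (hc : c ∈ supp y) : 0 < mergedMass y m c := by
  obtain ⟨i, hi⟩ := (mem_supp_iff y c).mp hc
  rw [mergedMass_def]
  refine Finset.sum_pos' (fun j _ => ?_) ⟨i, Finset.mem_univ i, ?_⟩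
  · split_ifs
    · exact (hm j).le
    · exact le_rfl
  · rw [if_pos hi]
    exact hm i

/-- Regrouping a labelled sum by atoms. -/
theorem sum_supp_mergedMass {ι : Type} [Fintype ι] (y : ι → E d) (m : ι → ℝ) (f : E d → ℝ) :
    ∑ c ∈ supp y, mergedMass y m c * f c = ∑ i, m i * f (y i) := by
  simp only [mergedMass_def, Finset.sum_mul]
  rw [Finset.sum_comm]
  refine Finset.sum_congr rfl fun i _ => ?_
  have hi : y i ∈ supp y := (mem_supp_iff y (y i)).mpr ⟨i, rfl⟩
  have : ∀ c ∈ supp y, (if y i = c then m i else 0) * f c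
      = if y i = c then m i * f c else 0 := by
    intro c _
    split_ifs <;> simp
  rw [Finset.sum_congr rfl this, Finset.sum_ite_eq, if_pos hi]

theorem sum_mergedMass {ι : Type} [Fintype ι] (y : ι → E d) (m : ι → ℝ) :
    ∑ c ∈ supp y, mergedMass y m c = ∑ i, m i := by
  simpa using sum_supp_mergedMass y m (fun _ => (1 : ℝ))

end Crest.Agent.Helper75.OT
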